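import Mathlib

open scoped ContDiff
open MeasureTheory

namespace Vale.Agent.P205

/-- A primitive of a smooth function is smooth. -/
lemma primitive_smooth {s : ℝ → ℝ} (hs : ContDiff ℝ ∞ s) :
    ContDiff ℝ ∞ (fun x => ∫ t in (0 : ℝ)..x, s t) ∧
      ∀ x, HasDerivAt (fun x => ∫ t in (0 : ℝ)..x, s t) (s x) x := by
  have hd : ∀ x, HasDerivAt (fun x => ∫ t in (0 : ℝ)..x, s t) (s x) x := fun x =>
    (hs.continuous.integral_hasStrictDerivAt 0 x).hasDerivAt
  refine ⟨?_, hd⟩
  rw [contDiff_infty_iff_deriv]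
  refine ⟨fun x => (hd x).differentiableAt, ?_⟩
  have : deriv (fun x => ∫ t in (0 : ℝ)..x, s t) = s := by
    funext x
    exact (hd x).deriv
  rw [this]
  exact hs

/-- A primitive of a periodic function is periodic up to its total increment. -/
lemma primitive_periodic {s : ℝ → ℝ} (hs : Continuous s) {L : ℝ} (ps : Function.Periodic s L)
    (x : ℝ) : ∫ t in (0 : ℝ)..(x + L), s t = (∫ t in (0 : ℝ)..x, s t) + ∫ t in (0 : ℝ)..L, s t := by
  have h1 : ∫ t in x..(x + L), s t = ∫ t in (0 : ℝ)..(0 + L), s t :=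
    ps.intervalIntegral_add_eq x 0
  rw [zero_add] at h1
  rw [← h1, intervalIntegral.integral_add_adjacent_intervals
    (hs.intervalIntegrable _ _) (hs.intervalIntegrable _ _)]

lemma exists_pos_lower {f : ℝ → ℝ} (hf : Continuous f) {L : ℝ} (hL : L ≠ 0)
    (pf : Function.Periodic f L) (hpos : ∀ x, 0 < f x) : ∃ δ > 0, ∀ x, δ ≤ f x := by
  have hc : IsCompact (Set.range f) := pf.compact_of_continuous hL hf
  obtain ⟨m, hm, hmin⟩ := hc.exists_isLeast ⟨f 0, 0, rfl⟩
  obtain ⟨x0, rfl⟩ := hm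
  exact ⟨f x0, hpos x0, fun x => hmin ⟨x, rfl⟩⟩

lemma exists_upper {f : ℝ → ℝ} (hf : Continuous f) {L : ℝ} (hL : L ≠ 0)
    (pf : Function.Periodic f L) : ∃ M, ∀ x, f x ≤ M := by
  have hc : IsCompact (Set.range f) := pf.compact_of_continuous hL hf
  obtain ⟨m, hm, hmax⟩ := hc.exists_isGreatest ⟨f 0, 0, rfl⟩
  exact ⟨m, fun x => hmax ⟨x, rfl⟩⟩

/-- The fderiv of a coordinate. -/
lemma fderiv_coord {Φ : ℝ × ℝ → EuclideanSpace ℝ (Fin 4)} {p : ℝ × ℝ}
    (hd : DifferentiableAt ℝ Φ p) (i : Fin 4) {l : (ℝ × ℝ) →L[ℝ] ℝ}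
    (hl : HasFDerivAt (fun q => Φ q i) l p) (v : ℝ × ℝ) : (fderiv ℝ Φ p v) i = l v := by
  have h1 := (EuclideanSpace.proj i : EuclideanSpace ℝ (Fin 4) →L[ℝ] ℝ).hasFDerivAt.comp p hd.hasFDerivAt
  have h2 := h1.unique hl
  have h3 := congrArg (fun m : (ℝ × ℝ) →L[ℝ] ℝ => m v) h2
  simpa using h3

/-- An invariant metric on the torus with rational twist immerses isometrically in `ℝ⁴`. -/
theorem torus_immersion (L T : ℝ) (hL : 0 < L) (hT : 0 < T) (E H G : ℝ → ℝ)
    (hE : ContDiff ℝ ∞ E) (hH : ContDiff ℝ ∞ H) (hG : ContDiff ℝ ∞ G)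
    (pE : Function.Periodic E L) (pH : Function.Periodic H L) (pG : Function.Periodic G L)
    (hGpos : ∀ x, 0 < G x) (hdet : ∀ x, 0 < E x * G x - H x ^ 2)
    (htwist : ∃ q : ℚ, ∫ x in (0 : ℝ)..L, H x / G x = q * T) :
    ∃ Φ : ℝ × ℝ → EuclideanSpace ℝ (Fin 4),
      ContDiff ℝ ∞ Φ ∧ (∀ x y, Φ (x + L, y) = Φ (x, y)) ∧ (∀ x y, Φ (x, y + T) = Φ (x, y)) ∧
      ∀ p v w : ℝ × ℝ, inner ℝ (fderiv ℝ Φ p v) (fderiv ℝ Φ p w)
        = E p.1 * v.1 * w.1 + H p.1 * (v.1 * w.2 + v.2 * w.1) + G p.1 * v.2 * w.2 := by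
  obtain ⟨q, hq⟩ := htwist
  have hGne : ∀ x, G x ≠ 0 := fun x => (hGpos x).ne'
  -- the radius function
  set r : ℝ → ℝ := fun x => Real.sqrt (G x) with hr
  have hrs : ContDiff ℝ ∞ r := hG.sqrt hGne
  have hrpos : ∀ x, 0 < r x := fun x => Real.sqrt_pos.2 (hGpos x)
  have hrsq : ∀ x, r x ^ 2 = G x := fun x => Real.sq_sqrt (hGpos x).le
  have pr : Function.Periodic r L := fun x => by simp only [hr, pG x]
  have hrd := (contDiff_infty_iff_deriv.1 hrs)
  set W : ℝ → ℝ := deriv r with hW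
  have hWs : ContDiff ℝ ∞ W := hrd.2
  have hrW : ∀ x, HasDerivAt r (W x) x := fun x => (hrd.1 x).hasDerivAt
  have pW : Function.Periodic W L := by
    intro x
    have h1 := (hrW x)
    have h2 : HasDerivAt (fun t => r (t + L)) (W (x + L)) x := by
      have := (hrW (x + L)).comp_add_const x L
      simpa using this
    have h3 : (fun t => r (t + L)) = r := by
      funext t
      exact pr t
    rw [h3] at h2
    exact h2.unique h1
  -- the normal part
  set D : ℝ → ℝ := fun x => E x - H x ^ 2 / G x with hD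
  have hDs : ContDiff ℝ ∞ D := hE.sub ((hH.pow 2).div hG hGne)
  have hDpos : ∀ x, 0 < D x := by
    intro x
    have h1 := hdet x
    have h2 := hGpos x
    have h3 : D x = (E x * G x - H x ^ 2) / G x := by
      simp only [hD]
      field_simp
    rw [h3]
    exact div_pos h1 h2
  have pD : Function.Periodic D L := fun x => by simp only [hD, pE x, pH x, pG x]
  obtain ⟨δ, hδ, hDδ⟩ := exists_pos_lower hDs.continuous hL.ne' pD hDpos
  obtain ⟨M, hM⟩ := exists_upper (f := fun x => W x ^ 2) (hWs.continuous.pow 2) hL.ne'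
    (fun x => by simp only [pW x])
  -- the frequency
  obtain ⟨N, hN⟩ := exists_nat_gt ((|M| / δ + 1) * T / (2 * Real.pi))
  have hπ : 0 < 2 * Real.pi := by positivity
  have hd : (1 : ℝ) ≤ q.den := by exact_mod_cast q.pos
  have hNpos : (0 : ℝ) < N := by
    have : 0 ≤ (|M| / δ + 1) * T / (2 * Real.pi) := by positivity
    linarith
  set k : ℝ := 2 * Real.pi * (N * q.den) / T with hk
  have hkN : (|M| / δ + 1) < k := by
    have h1 : (|M| / δ + 1) * T < N * (2 * Real.pi) := by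
      rwa [div_lt_iff₀ hπ] at hN
    have h2 : (N : ℝ) * (2 * Real.pi) ≤ N * q.den * (2 * Real.pi) := by
      have : (N : ℝ) ≤ N * q.den := le_mul_of_one_le_right hNpos.le hd
      exact mul_le_mul_of_nonneg_right this hπ.le
    rw [hk, lt_div_iff₀ hT]
    nlinarith
  have hMδ : 0 ≤ |M| / δ := by positivity
  have hk1 : 1 < k := by linarith
  have hkpos : 0 < k := by linarith
  have hWk : ∀ x, W x ^ 2 / k ^ 2 < δ := by
    intro x
    have h1 : W x ^ 2 ≤ |M| := (hM x).trans (le_abs_self M)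
    have h2 : |M| < δ * k := by
      have : |M| / δ < k := by linarith
      rwa [div_lt_iff₀ hδ, mul_comm] at this
    have h3 : k ≤ k ^ 2 := by nlinarith
    rw [div_lt_iff₀ (by positivity)]
    have h4 : δ * k ≤ δ * k ^ 2 := mul_le_mul_of_nonneg_left h3 hδ.le
    linarith
  -- the speed of the second circle
  set S : ℝ → ℝ := fun x => D x - W x ^ 2 / k ^ 2 with hSdef
  have hSpos : ∀ x, 0 < S x := fun x => by
    have := hWk x
    have := hDδ x
    simp only [hSdef]
    linarith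
  have hSs : ContDiff ℝ ∞ S := hDs.sub ((hWs.pow 2).div_const _)
  have pS : Function.Periodic S L := fun x => by simp only [hSdef, pD x, pW x]
  set s : ℝ → ℝ := fun x => Real.sqrt (S x) with hsdef
  have hss : ContDiff ℝ ∞ s := hSs.sqrt (fun x => (hSpos x).ne')
  have hspos : ∀ x, 0 < s x := fun x => Real.sqrt_pos.2 (hSpos x)
  have hssq : ∀ x, s x ^ 2 = S x := fun x => Real.sq_sqrt (hSpos x).le
  have ps : Function.Periodic s L := fun x => by simp only [hsdef, pS x]
  obtain ⟨hτs, hτd⟩ := primitive_smooth hss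
  set τ : ℝ → ℝ := fun x => ∫ t in (0 : ℝ)..x, s t with hτ
  have hτL : 0 < τ L := intervalIntegral.intervalIntegral_pos_of_pos
    (hss.continuous.intervalIntegrable _ _) hspos hL
  have pτ : ∀ x, τ (x + L) = τ x + τ L := fun x => primitive_periodic hss.continuous ps x
  set ρ : ℝ := τ L / (2 * Real.pi) with hρ
  have hρpos : 0 < ρ := div_pos hτL hπ
  -- the twist
  set b : ℝ → ℝ := fun x => H x / G x with hb
  have hbs : ContDiff ℝ ∞ b := hH.div hG hGne
  have pb : Function.Periodic b L := fun x => by simp only [hb, pH x, pG x]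
  obtain ⟨hBs, hBd⟩ := primitive_smooth hbs
  set B : ℝ → ℝ := fun x => ∫ t in (0 : ℝ)..x, b t with hB
  have pB : ∀ x, B (x + L) = B x + q * T := fun x => by
    have := primitive_periodic hbs.continuous pb x
    simp only [hB] at this ⊢
    rw [this]
    simp only [hb]
    rw [hq]
  -- the phases
  set θ : ℝ × ℝ → ℝ := fun p => k * p.2 + k * B p.1 with hθ
  set ang : ℝ → ℝ := fun x => τ x / ρ with hang
  have hθx : ∀ x y, ∃ n : ℤ, θ (x + L, y) = θ (x, y) + n * (2 * Real.pi) := by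
    intro x y
    refine ⟨N * q.num, ?_⟩
    simp only [hθ, pB x]
    have h1 : k * (q * T) = (N * q.num : ℤ) * (2 * Real.pi) := by
      have h2 : (q : ℝ) * q.den = q.num := by
        exact_mod_cast Rat.mul_den_eq_num q
      rw [hk]
      push_cast
      field_simp
      rw [← h2]
      ring
    rw [mul_add, h1]
    ring
  have hθy : ∀ x y, ∃ n : ℤ, θ (x, y + T) = θ (x, y) + n * (2 * Real.pi) := by
    intro x y
    refine ⟨N * q.den, ?_⟩
    simp only [hθ]
    have h1 : k * T = (N * q.den : ℤ) * (2 * Real.pi) := by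
      rw [hk]
      push_cast
      field_simp
    rw [mul_add k y T, h1]
    ring
  have hangx : ∀ x, ang (x + L) = ang x + 2 * Real.pi := by
    intro x
    simp only [hang, pτ x]
    rw [add_div]
    congr 1
    rw [hρ]
    field_simp
  have hcosn : ∀ (t : ℝ) (n : ℤ), Real.cos (t + n * (2 * Real.pi)) = Real.cos t :=
    fun t n => Real.cos_add_int_mul_two_pi t n
  have hsinn : ∀ (t : ℝ) (n : ℤ), Real.sin (t + n * (2 * Real.pi)) = Real.sin t :=
    fun t n => Real.sin_add_int_mul_two_pi t n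
  -- the map
  set A : ℝ → ℝ := fun x => r x / k with hA
  have pA : Function.Periodic A L := fun x => by simp only [hA, pr x]
  have hAs : ContDiff ℝ ∞ A := hrs.div_const k
  have hθs : ContDiff ℝ ∞ θ :=
    (contDiff_const.mul contDiff_snd).add (contDiff_const.mul (hBs.comp contDiff_fst))
  have hangs : ContDiff ℝ ∞ ang := hτs.div_const ρ
  have hΦs : ContDiff ℝ ∞ (fun p : ℝ × ℝ => !₂[A p.1 * Real.cos (θ p), A p.1 * Real.sin (θ p),
      ρ * Real.cos (ang p.1), ρ * Real.sin (ang p.1)]) := by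
    rw [contDiff_euclidean]
    intro i
    fin_cases i
    · exact (hAs.comp contDiff_fst).mul (Real.contDiff_cos.comp hθs)
    · exact (hAs.comp contDiff_fst).mul (Real.contDiff_sin.comp hθs)
    · exact contDiff_const.mul (Real.contDiff_cos.comp (hangs.comp contDiff_fst))
    · exact contDiff_const.mul (Real.contDiff_sin.comp (hangs.comp contDiff_fst))
  refine ⟨fun p => !₂[A p.1 * Real.cos (θ p), A p.1 * Real.sin (θ p),
    ρ * Real.cos (ang p.1), ρ * Real.sin (ang p.1)], hΦs, ?_, ?_, ?_⟩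
  · intro x y
    obtain ⟨n, hn⟩ := hθx x y
    simp only [pA x, hn, hcosn, hsinn, hangx x, Real.cos_add_two_pi, Real.sin_add_two_pi]
  · intro x y
    obtain ⟨n, hn⟩ := hθy x y
    simp only [hn, hcosn, hsinn]
  · intro p v w
    obtain ⟨x, y⟩ := p
    have hdiff := (hΦs.differentiable (by simp)) (x, y)
    set π1 := ContinuousLinearMap.fst ℝ ℝ ℝ with hπ1
    set π2 := ContinuousLinearMap.snd ℝ ℝ ℝ with hπ2
    have hfst : HasFDerivAt (fun q : ℝ × ℝ => q.1) π1 (x, y) := hasFDerivAt_fst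
    have hsnd : HasFDerivAt (fun q : ℝ × ℝ => q.2) π2 (x, y) := hasFDerivAt_snd
    have hA1 : HasDerivAt A (W x / k) x := (hrW x).div_const k
    have hAq : HasFDerivAt (fun q : ℝ × ℝ => A q.1) ((W x / k) • π1) (x, y) := by
      have h0 : HasDerivAt A (W x / k) ((x, y) : ℝ × ℝ).1 := hA1
      have := h0.comp_hasFDerivAt (x, y) hfst
      exact this
    have hBq : HasFDerivAt (fun q : ℝ × ℝ => B q.1) (b x • π1) (x, y) := by
      have h0 : HasDerivAt B (b x) ((x, y) : ℝ × ℝ).1 := hBd x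
      have := h0.comp_hasFDerivAt (x, y) hfst
      exact this
    have hθq : HasFDerivAt θ (k • π2 + k • (b x • π1)) (x, y) :=
      (hsnd.const_mul k).fun_add (hBq.const_mul k)
    have hangq : HasFDerivAt (fun q : ℝ × ℝ => ang q.1) ((s x / ρ) • π1) (x, y) := by
      have h0 : HasDerivAt ang (s x / ρ) ((x, y) : ℝ × ℝ).1 := (hτd x).div_const ρ
      have := h0.comp_hasFDerivAt (x, y) hfst
      exact this
    set dθ := k • π2 + k • (b x • π1) with hdθ
    have c0 : HasFDerivAt (fun q : ℝ × ℝ => A q.1 * Real.cos (θ q))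
        (A x • (-Real.sin (θ (x, y)) • dθ) + Real.cos (θ (x, y)) • ((W x / k) • π1)) (x, y) :=
      hAq.fun_mul hθq.cos
    have c1 : HasFDerivAt (fun q : ℝ × ℝ => A q.1 * Real.sin (θ q))
        (A x • (Real.cos (θ (x, y)) • dθ) + Real.sin (θ (x, y)) • ((W x / k) • π1)) (x, y) :=
      hAq.fun_mul hθq.sin
    have c2 : HasFDerivAt (fun q : ℝ × ℝ => ρ * Real.cos (ang q.1))
        (ρ • (-Real.sin (ang x) • ((s x / ρ) • π1))) (x, y) :=
      hangq.cos.const_mul ρ
    have c3 : HasFDerivAt (fun q : ℝ × ℝ => ρ * Real.sin (ang q.1))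
        (ρ • (Real.cos (ang x) • ((s x / ρ) • π1))) (x, y) :=
      hangq.sin.const_mul ρ
    have hinner : ∀ a c : EuclideanSpace ℝ (Fin 4),
        inner ℝ a c = a 0 * c 0 + a 1 * c 1 + a 2 * c 2 + a 3 * c 3 := by
      intro a c
      rw [PiLp.inner_apply, Fin.sum_univ_four]
      simp only [RCLike.inner_apply, conj_trivial]
      ring
    rw [hinner]
    rw [fderiv_coord hdiff 0 c0 v, fderiv_coord hdiff 0 c0 w, fderiv_coord hdiff 1 c1 v,
      fderiv_coord hdiff 1 c1 w, fderiv_coord hdiff 2 c2 v, fderiv_coord hdiff 2 c2 w,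
      fderiv_coord hdiff 3 c3 v, fderiv_coord hdiff 3 c3 w]
    simp only [add_apply, smul_apply, smul_eq_mul, hdθ,
      hπ1, hπ2, ContinuousLinearMap.coe_fst', ContinuousLinearMap.coe_snd']
    set Cθ := Real.cos (θ (x, y))
    set Sθ := Real.sin (θ (x, y))
    set Ca := Real.cos (ang x)
    set Sa := Real.sin (ang x)
    have h1 : Sθ ^ 2 + Cθ ^ 2 = 1 := Real.sin_sq_add_cos_sq _
    have h2 : Sa ^ 2 + Ca ^ 2 = 1 := Real.sin_sq_add_cos_sq _
    have hAk : A x * k = r x := by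
      simp only [hA]
      field_simp
    have hρs : ρ * (s x / ρ) = s x := by
      field_simp
    have hAk2 : (A x) ^ 2 * k ^ 2 = G x := by
      rw [← mul_pow, hAk, hrsq]
    have hs2 : s x ^ 2 = E x - H x ^ 2 / G x - W x ^ 2 / k ^ 2 := hssq x
    have hG0 := hGne x
    have hGb : G x * b x = H x := by
      simp only [hb]
      field_simp
    have hGb2 : G x * b x ^ 2 = H x ^ 2 / G x := by
      simp only [hb]
      field_simp
    have key : (A x * (-Sθ * (k * v.2 + k * (b x * v.1))) + Cθ * (W x / k * v.1)) *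
          (A x * (-Sθ * (k * w.2 + k * (b x * w.1))) + Cθ * (W x / k * w.1)) +
        (A x * (Cθ * (k * v.2 + k * (b x * v.1))) + Sθ * (W x / k * v.1)) *
          (A x * (Cθ * (k * w.2 + k * (b x * w.1))) + Sθ * (W x / k * w.1)) +
        (ρ * (-Sa * (s x / ρ * v.1))) * (ρ * (-Sa * (s x / ρ * w.1))) +
        (ρ * (Ca * (s x / ρ * v.1))) * (ρ * (Ca * (s x / ρ * w.1)))
        = ((A x) ^ 2 * k ^ 2 * ((v.2 + b x * v.1) * (w.2 + b x * w.1))
            + (W x / k) ^ 2 * (v.1 * w.1)) * (Sθ ^ 2 + Cθ ^ 2)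
          + (ρ * (s x / ρ)) ^ 2 * (v.1 * w.1) * (Sa ^ 2 + Ca ^ 2) := by
      ring
    rw [key, h1, h2, hAk2, hρs, hs2]
    have h3 : G x * ((v.2 + b x * v.1) * (w.2 + b x * w.1))
        = G x * v.2 * w.2 + (G x * b x) * (v.1 * w.2 + v.2 * w.1)
          + (G x * b x ^ 2) * (v.1 * w.1) := by ring
    rw [h3, hGb, hGb2, div_pow]
    ring

end Vale.Agent.P205
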